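import Vale.Agent.P127.Flat

/-! P127 HB/FlatP: `flat` for the key (height, cell of the position), with all counts done. -/

namespace Vale.Agent.P127

open Finset
open scoped Classical

variable {D : ℕ}

/-- height and cell of the position -/
noncomputable def keyP (d : Dat D) (Lw : ℝ) (ω : ℕ × ℝ) : ℝ × (Fin D → ℤ) :=
  (ω.2, cell Lw (d.c.pos ω))

/-- cell of the direction -/
noncomputable def thP (d : Dat D) (Lw : ℝ) (ω : ℕ × ℝ) : Fin D → ℤ := cell Lw (d.c.e ω.1)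

theorem fp_img {α β : Type} {i : DecidableEq β} {f : α → β} {s : Finset α} {y : β}
    (h : y ∈ @image α β i f s) : ∃ a ∈ s, f a = y := mem_image.1 h

theorem fp_fil {α : Type} {p : α → Prop} {i : DecidablePred p} {s : Finset α} {a : α}
    (h : a ∈ @filter α p i s) : a ∈ s ∧ p a := mem_filter.1 h

section

variable {σ : ℝ} {m : ℕ} {d : Dat D} {N H K Lw : ℝ}

theorem fp_corner {r : ℝ} (hr : 0 < r) {v : V D} {t : Fin D → ℤ} (h : cell r v = t) :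
    ‖v - fun j => r * (t j : ℝ)‖ ≤ r := h ▸ cell_corner hr v

theorem fp_key {M : ℝ} (h : Reg σ m d N H K) (hH : 1 ≤ H) (M0 : 0 ≤ M)
    (hM : ∀ z, (((d.c.E.filter fun ω => ω.2 = z ∧ ‖d.c.pos ω - 0‖ ≤ 2 * 1).image
      fun ω => cell Lw (d.c.pos ω)).card : ℝ) ≤ M) (T : Finset (ℝ × (Fin D → ℤ)))
    (hT : ∀ y ∈ T, ∃ ω ∈ d.c.E, keyP d Lw ω = y) : (T.card : ℝ) ≤ K * H * M := by
  refine (card_le_fib T (fun y => y.1) (M := M) fun y _ => ?_).trans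
    (mul_le_mul_of_nonneg_right (le_trans (Nat.cast_le.2 (card_le_card fun z hz => ?_))
      (h.good.toPre.cardZ hH)) M0)
  · refine le_trans (Nat.cast_le.2 (le_trans (card_le_card fun y' hy' => ?_)
      (card_image_le (f := fun t => (y.1, t))))) (hM y.1)
    obtain ⟨h1, h3⟩ := mem_filter.1 hy'
    obtain ⟨ω, h2, rfl⟩ := hT _ h1
    refine mem_image.2 ⟨_, mem_image_of_mem _ (mem_filter.2 ⟨h2, h3, ?_⟩), by rw [← h3]; rfl⟩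
    rw [sub_zero, mul_one]
    exact h.good.toPre.norm_pos h2
  · obtain ⟨y, h1, rfl⟩ := mem_image.1 hz
    obtain ⟨ω, h2, rfl⟩ := hT _ h1
    exact (mem_product.1 (h.good.sub h2)).2

theorem fp_c1 (h : Reg σ m d N H K) (hL : 0 < Lw) {k0 : ℝ × (Fin D → ℤ)} {i : ℕ} {z0 z1 : ℝ}
    (h2 : i ∈ d.c.L) (h5 : keyP d Lw (i, z0) = k0) (h6 : cz Lw z0 = cz Lw z1) :
    ‖d.c.pos (i, z1) - fun j => Lw * (k0.2 j : ℝ)‖ ≤ 2 * Lw := by
  have a1 : ‖d.c.pos (i, z0) - fun j => Lw * (k0.2 j : ℝ)‖ ≤ Lw :=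
    fp_corner hL (congrArg Prod.snd h5)
  have a2 := cz_close hL h6.symm
  have a3 : ‖(z1 - z0) • d.c.e i‖ ≤ Lw := by
    rw [norm_smul, Real.norm_eq_abs]
    exact (mul_le_mul a2 (h.good.be i h2) (norm_nonneg _) hL.le).trans_eq (mul_one _)
  rw [pos_shift d.c i z0 z1, add_sub_right_comm]
  exact (norm_add_le _ _).trans (by linarith)

theorem fp_th (h : Reg σ m d N H K) (hL : 0 < Lw) {k0 : ℝ × (Fin D → ℤ)} {ω : ℕ × ℝ}
    (h1 : ω ∈ d.c.E) (h2 : keyP d Lw ω = k0) : |ω.2 - k0.1| ≤ Lw ∧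
      ‖d.c.pos ω - fun j => Lw * (k0.2 j : ℝ)‖ ≤ Lw ∧ ‖d.c.e ω.1 - 0‖ ≤ 1 := by
  refine ⟨?_, fp_corner hL (congrArg Prod.snd h2), ?_⟩
  · rw [show ω.2 = k0.1 from congrArg Prod.fst h2, sub_self, abs_zero]
    exact hL.le
  · rw [sub_zero]
    exact h.good.be _ (mem_product.1 (h.good.sub h1)).1

theorem fp_box (hL : 0 < Lw) (z : ℝ) (p q : V D) (T : Finset ((ℝ × (Fin D → ℤ)) × (Fin D → ℤ)))
    (hT : ∀ y ∈ T, ∃ ω ∈ d.c.E, (ω.2 = z ∧ ‖d.c.e ω.1 - p‖ ≤ Lw ∧ ‖d.c.pos ω - q‖ ≤ 2 * Lw) ∧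
      (keyP d Lw ω, thP d Lw ω) = y) : (T.card : ℝ) ≤ 24 ^ D := by
  set F := d.c.E.filter fun ω => ω.2 = z ∧ ‖d.c.e ω.1 - p‖ ≤ Lw ∧ ‖d.c.pos ω - q‖ ≤ 2 * Lw
  have a1 := cover F (fun ω => d.c.pos ω) q hL (by positivity) fun ω hω => (mem_filter.1 hω).2.2.2
  have a2 := cover F (fun ω => d.c.e ω.1) p hL hL.le fun ω hω => (mem_filter.1 hω).2.2.1
  rw [Fintype.card_fin] at a1 a2
  rw [show 2 * (2 * Lw) / Lw + 2 = 6 by field_simp; norm_num] at a1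
  rw [show 2 * Lw / Lw + 2 = 4 by field_simp; norm_num] at a2
  have a3 : T ⊆
      ((F.image fun ω => cell Lw (d.c.pos ω)) ×ˢ F.image fun ω => cell Lw (d.c.e ω.1)).image
        fun t => ((z, t.1), t.2) := by
    intro y hy
    obtain ⟨ω, h0, h1, rfl⟩ := hT y hy
    have h2 : ω ∈ F := mem_filter.2 ⟨h0, h1⟩
    refine mem_image.2 ⟨(_, _), mem_product.2 ⟨mem_image_of_mem _ h2, mem_image_of_mem _ h2⟩, ?_⟩
    rw [← h1.1]
    rfl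
  refine (Nat.cast_le.2 ((card_le_card a3).trans card_image_le)).trans ?_
  rw [card_product, Nat.cast_mul, show (24 : ℝ) = 6 * 4 by norm_num, mul_pow]
  exact mul_le_mul a1 a2 (Nat.cast_nonneg _) (by positivity)

end

theorem flatP {m : ℕ} {σ : ℝ} (hm : 1 ≤ m) (hNI : ¬ Inh (D := D) (CK σ (m - 1))) {ε2 : ℝ}
    (hε2 : 0 < ε2) (Cw : ℝ) : ∀ ε' > (0 : ℝ), ∃ ε > (0 : ℝ), ∃ N0 : ℝ, ∀ ε1, 0 < ε1 → ε1 ≤ ε →
    ∀ N ≥ N0, ∀ (d : Dat D) (H Lw R : ℝ) (p : ℕ) (w : ℝ × (Fin D → ℤ) → (Fin D → ℤ) → V D),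
    Reg σ m d N H (N ^ ε1) → 1 ≤ H → (p = 1 ∨ p = 2) → 1 / N ≤ Lw → Lw ≤ 1 → N ^ ε2 ≤ H * Lw →
    1 / N ≤ R → (∀ k t i, i ∉ d.S → w k t i = 0) →
    (∀ ω ∈ d.c.E, ‖w (keyP d Lw ω) (thP d Lw ω)‖ ≤ Cw * N ^ ε1) →
    (∀ i i' z0 z1, (i, z0) ∈ d.c.E → (i', z0) ∈ d.c.E → (i, z1) ∈ d.c.E → (i', z1) ∈ d.c.E →
      keyP d Lw (i, z0) = keyP d Lw (i', z0) → ‖d.c.pos (i, z1) - d.c.pos (i', z1)‖ ≤ 1 / N →
      cz Lw z0 = cz Lw z1 → ‖d.u (i, z0) - d.u (i', z0) - (z1 - z0) ^ p •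
        (w (keyP d Lw (i, z0)) (thP d Lw (i, z0)) - w (keyP d Lw (i', z0)) (thP d Lw (i', z0)))‖ ≤
        R) →
    ∃ E' ⊆ d.c.E, d.c.nL * H / N ^ ε' ≤ E'.card ∧ ∀ ω ∈ E', ∀ ω' ∈ E', keyP d Lw ω = keyP d Lw ω' →
      ‖w (keyP d Lw ω) (thP d Lw ω) - w (keyP d Lw ω') (thP d Lw ω')‖ ≤
        2 * R * N ^ ε2 / Lw ^ p := by
  intro ε' hε'
  obtain ⟨εf, hf, N1, hF⟩ := flat hm hNI hε2 ε' hε'
  obtain ⟨C, C1, hC⟩ := rpA D
  obtain ⟨ε0, h0, N2, hS⟩ := small ((C * 2 ^ (2 * D)) ^ 2 + |Cw| + 24 ^ D) 5 hf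
  refine ⟨ε0, h0, max N1 N2, fun ε1 e0 e1 N hN d H Lw R p w hR hH hp hL hL1 hw hR1 w0 wb cl => ?_⟩
  obtain ⟨N2', hs⟩ := hS ε1 e0 e1 N (le_of_max_le_right hN)
  have N1' : 1 ≤ N := by linarith
  have N0 : 0 < N := by linarith
  have K1 : 1 ≤ N ^ ε1 := Real.one_le_rpow N1' e0.le
  generalize N ^ ε1 = K at *
  have iN : 0 < 1 / N := by positivity
  have L0 : 0 < Lw := iN.trans_le hL
  have nL := hR.good.nL_pos
  have K5 : K ≤ K ^ 5 := le_self_pow₀ K1 (by norm_num)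
  have B1 : 1 ≤ C * 2 ^ (2 * D) := one_le_mul_of_one_le_of_one_le C1 (one_le_pow₀ one_le_two)
  generalize hB : C * 2 ^ (2 * D) = B at hs B1
  have p24 : (1 : ℝ) ≤ 24 ^ D := one_le_pow₀ (by norm_num)
  have cw := abs_nonneg Cw
  have s1 : B ^ 2 * K ^ 5 ≤ N ^ εf := by nlinarith
  have s2 : Cw * K ≤ N ^ εf := by nlinarith [le_abs_self Cw, sq_nonneg B]
  have s3 : 24 ^ D ≤ N ^ εf := by nlinarith [sq_nonneg B]
  have s4 : K ≤ N ^ εf := by nlinarith [sq_nonneg B]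
  refine hF N (le_of_max_le_left hN) d H _ Lw R (K * H * (B * K * (1 / Lw) ^ ((D : ℝ) - σ)))
    (B * K * (Lw / (1 / N)) ^ ((D : ℝ) - σ)) (K * (1 / Lw) ^ σ)
    (K * d.c.nL * (1 / N) ^ ((D : ℝ) - σ) * Lw ^ σ) p _ _ _ (keyP d Lw) (thP d Lw) w
    (fun ω => cell (1 / N) (d.c.pos ω)) rfl (hR.mono N0 (by linarith) (by linarith) s4) hp L0 hL1 hw
    hR1 (by positivity) (by positivity) (by positivity) (by positivity)
    (fun _ _ _ _ e => congrArg Prod.fst e) w0 (fun ω hω => (wb ω hω).trans s2)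
    ?_ (fun k0 z1 => ?_) (fun k0 => ?_) (fun k0 t z1 γ => ?_) ?_
    (fun i i' z0 z1 a1 a2 a3 a4 a5 a6 a7 => cl i i' z0 z1 a1 a2 a3 a4 a5 (cell_close iN a6) a7)
    fun z p q => ?_
  · exact fp_key hR hH (by positivity)
      (fun z => hB ▸ hC hR N1' 2 z 1 Lw 0 one_le_two hL hL1 le_rfl) _ fun y hy => fp_img hy
  · refine le_trans (Nat.cast_le.2 (card_le_card fun y hy => ?_))
      (hB ▸ hC hR N1' 2 z1 Lw (1 / N) (fun j => Lw * (k0.2 j : ℝ)) one_le_two le_rfl hL hL1)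
    obtain ⟨i, h1, rfl⟩ := fp_img hy
    obtain ⟨h2, h3, z0, -, h5, h6⟩ := fp_fil h1
    exact mem_image.2 ⟨(i, z1), mem_filter.2 ⟨h3, rfl, fp_c1 hR L0 h2 h5 h6⟩, rfl⟩
  · refine le_trans (Nat.cast_le.2 (card_le_card fun y hy => ?_))
      (hR.r2 k0.1 1 Lw 0 (fun j => Lw * (k0.2 j : ℝ)) hL hL1 le_rfl)
    obtain ⟨ω, h1, rfl⟩ := fp_img hy
    obtain ⟨h2, h3⟩ := fp_fil h1
    exact mem_image.2 ⟨ω, mem_filter.2 ⟨h2, fp_th hR L0 h2 h3⟩, rfl⟩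
  · refine le_trans (Nat.cast_le.2 (card_le_card fun i hi => ?_))
      (hR.r1 z1 Lw (1 / N) (fun j => Lw * (t j : ℝ)) (fun j => 1 / N * (γ j : ℝ)) le_rfl hL hL1)
    obtain ⟨a0, a1, a2, z0, -, -, a3, -⟩ := fp_fil hi
    exact mem_filter.2 ⟨a0, a1, fp_corner L0 a3, fp_corner iN a2⟩
  · have a1 : (1 / Lw) ^ ((D : ℝ) - σ) * (Lw / (1 / N)) ^ ((D : ℝ) - σ) *
        (1 / N) ^ ((D : ℝ) - σ) = 1 := by
      rw [← Real.mul_rpow (by positivity) (by positivity),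
        ← Real.mul_rpow (by positivity) (by positivity),
        show 1 / Lw * (Lw / (1 / N)) * (1 / N) = 1 by field_simp, Real.one_rpow]
    have a2 : (1 / Lw) ^ σ * Lw ^ σ = 1 := by
      rw [← Real.mul_rpow (by positivity) (by positivity), show 1 / Lw * Lw = 1 by field_simp,
        Real.one_rpow]
    calc _ = B ^ 2 * K ^ 5 * d.c.nL * H * ((1 / Lw) ^ ((D : ℝ) - σ) *
          (Lw / (1 / N)) ^ ((D : ℝ) - σ) * (1 / N) ^ ((D : ℝ) - σ)) * ((1 / Lw) ^ σ * Lw ^ σ) := by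
          ring
      _ ≤ _ := by
          rw [a1, a2, mul_one, mul_one]
          gcongr
  · refine (fp_box (d := d) L0 z p q _ fun y hy => ?_).trans s3
    obtain ⟨ω, h1, rfl⟩ := fp_img hy
    obtain ⟨h2, h3⟩ := fp_fil h1
    exact ⟨ω, h2, h3, rfl⟩

end Vale.Agent.P127
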